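import Vale.Agent.P235.H134.Grid.Excl

namespace Vale.Agent.Results.P235.OmittedPlanar

open Vale.Agent.P235 Vale.Agent.P235.H134

/-- (1) The Gupta–Newman–Rabinovich–Sinclair conjecture for every minor-closed family `F` that
omits some (connected) planar graph: there is a constant `C` with `c₁(G) ≤ C` for all `G ∈ F`.
(2) For every planar graph `H` there is a constant `C` with `c₁(G) ≤ C` for all connected graphs
`G` without a minor `H`. (3) For every `k` there is a constant `C` with `c₁(G) ≤ C` for all
connected graphs `G` of treewidth at most `k`. -/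
theorem result :
    (∀ F : (V : Type) → SimpleGraph V → Prop, MinorClosed F →
      (∃ (W : Type) (_ : Finite W) (H : SimpleGraph W), H.Connected ∧ Planar H ∧ ¬ F W H) →
      ∃ C : ℝ, ∀ (V : Type) [Finite V] (G : SimpleGraph V), G.Connected → F V G →
        DistortionLE G C) ∧
    (∀ (W : Type) [Finite W] (H : SimpleGraph W), Planar H →
      ∃ C : ℝ, ∀ (V : Type) [Finite V] (G : SimpleGraph V), G.Connected → ¬ IsMinor H G →
        DistortionLE G C) ∧
    (∀ k : ℕ, ∃ C : ℝ, ∀ (V : Type) [Finite V] (G : SimpleGraph V), G.Connected →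
      TreewidthLE G k → DistortionLE G C) :=
  ⟨omittedPlanar, fun W _ H hH => excludedPlanar W H hH, H957.tw_bounded⟩

end Vale.Agent.Results.P235.OmittedPlanar
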