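import Vale.Agent.P235.H150.Final

namespace Vale.Agent.Results.P235.TreewidthLower

open Vale.Agent.P235

/-- A polynomial lower bound in the treewidth: for every `D ≥ 1` and every `k ≥ 267 D ^ 4` there is
a finite connected graph of treewidth at most `k` some path metric of which does not embed into
`L₁` with distortion `D`. -/
theorem result : ∀ (D : ℝ) (k : ℕ), 1 ≤ D → 267 * D ^ 4 ≤ k →
    ∃ (V : Type) (_ : Finite V) (G : SimpleGraph V),
      G.Connected ∧ TreewidthLE G k ∧ ¬ DistortionLE G D := by
  intro D k hD hk
  by_contra h
  push Not at h
  exact TL.lower hD hk fun V _ G h1 h2 => h V inferInstance G h1 h2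

end Vale.Agent.Results.P235.TreewidthLower
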